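import Mathlib

/-!
# P134: partial derivatives in coordinates

`pd k f x` is the partial derivative of `f` at `x` in direction `k`. Basic calculus facts, and the
Bochner argument: a `C³` function with constant `|∇φ|²` and constant `Δφ` is affine.
-/

open Set Filter Topology

namespace Vale.Agent.Lib.P134

variable {m : ℕ}

/-- The partial derivative `∂ₖ f (x)`: the derivative at `x k` of `f` along the line through `x` in
coordinate direction `k`. -/
noncomputable def pd (k : Fin m) (f : (Fin m → ℝ) → ℝ) (x : Fin m → ℝ) : ℝ :=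
  deriv (fun t => f (Function.update x k t)) (x k)

theorem line_hasDeriv {f : (Fin m → ℝ) → ℝ} {x : Fin m → ℝ} (hf : DifferentiableAt ℝ f x)
    (k : Fin m) :
    HasDerivAt (fun t => f (Function.update x k t)) (fderiv ℝ f x (Pi.single k 1)) (x k) := by
  have h1 : HasDerivAt (Function.update x k) (Pi.single k (1 : ℝ)) (x k) :=
    hasDerivAt_update x k (x k)
  have h2 : HasFDerivAt f (fderiv ℝ f x) (Function.update x k (x k)) := by
    rw [Function.update_eq_self]
    exact hf.hasFDerivAt
  exact h2.comp_hasDerivAt (x k) h1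

theorem pd_eq {f : (Fin m → ℝ) → ℝ} {x : Fin m → ℝ} (hf : DifferentiableAt ℝ f x) (k : Fin m) :
    pd k f x = fderiv ℝ f x (Pi.single k 1) :=
  (line_hasDeriv hf k).deriv

theorem line_hasDeriv_pd {f : (Fin m → ℝ) → ℝ} {x : Fin m → ℝ} (hf : DifferentiableAt ℝ f x)
    (k : Fin m) :
    HasDerivAt (fun t => f (Function.update x k t)) (pd k f x) (x k) := by
  rw [pd_eq hf]
  exact line_hasDeriv hf k

theorem pd_funext {f : (Fin m → ℝ) → ℝ} (hf : Differentiable ℝ f) (k : Fin m) :
    pd k f = fun x => fderiv ℝ f x (Pi.single k 1) :=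
  funext fun x => pd_eq (hf x) k

theorem contDiff_pd {n : WithTop ℕ∞} {f : (Fin m → ℝ) → ℝ} (hf : ContDiff ℝ (n + 1) f)
    (k : Fin m) : ContDiff ℝ n (pd k f) := by
  have hd : Differentiable ℝ f := hf.differentiable (by simp)
  rw [pd_funext hd]
  have h1 : ContDiff ℝ n (fderiv ℝ f) := hf.fderiv_right le_rfl
  exact h1.clm_apply contDiff_const

theorem pd_comm {f : (Fin m → ℝ) → ℝ} (hf : ContDiff ℝ 2 f) (j k : Fin m) :
    pd j (pd k f) = pd k (pd j f) := by
  have hd : Differentiable ℝ f := hf.differentiable (by simp)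
  have h1 : ContDiff ℝ 1 (fderiv ℝ f) := hf.fderiv_right (by norm_num)
  have hd1 : Differentiable ℝ (fderiv ℝ f) := h1.differentiable (by simp)
  have key : ∀ (v w : Fin m → ℝ) (x : Fin m → ℝ),
      fderiv ℝ (fun y => fderiv ℝ f y w) x v = fderiv ℝ (fderiv ℝ f) x v w := by
    intro v w x
    have h2 : HasFDerivAt (fun y => fderiv ℝ f y w)
        ((ContinuousLinearMap.apply ℝ ℝ w).comp (fderiv ℝ (fderiv ℝ f) x)) x :=
      (ContinuousLinearMap.apply ℝ ℝ w).hasFDerivAt.comp x (hd1 x).hasFDerivAt
    rw [h2.fderiv]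
    rfl
  funext x
  have hdj : DifferentiableAt ℝ (pd k f) x := by
    rw [pd_funext hd]
    exact ((hd1 x).clm_apply (differentiableAt_const _))
  have hdk : DifferentiableAt ℝ (pd j f) x := by
    rw [pd_funext hd]
    exact ((hd1 x).clm_apply (differentiableAt_const _))
  rw [pd_eq hdj, pd_eq hdk, pd_funext hd k, pd_funext hd j, key, key]
  have hsymm : IsSymmSndFDerivAt ℝ f x :=
    hf.contDiffAt.isSymmSndFDerivAt (by simp)
  exact hsymm _ _

/-- A `C¹` function with vanishing partial derivatives is constant. -/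
theorem const_of_pd_zero {f : (Fin m → ℝ) → ℝ} (hf : Differentiable ℝ f)
    (h : ∀ k x, pd k f x = 0) (x y : Fin m → ℝ) : f x = f y := by
  have hz : ∀ z, fderiv ℝ f z = 0 := by
    intro z
    apply ContinuousLinearMap.coe_injective
    apply LinearMap.pi_ext'
    intro k
    apply LinearMap.ext_ring
    have := h k z
    rw [pd_eq (hf z)] at this
    simpa using this
  exact is_const_of_fderiv_eq_zero hf hz x y

/-- **Bochner.** A `C³` function with `|∇φ|²` and `Δφ` constant has vanishing second derivatives. -/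
theorem bochner {φ : (Fin m → ℝ) → ℝ} (hφ : ContDiff ℝ 3 φ) {a b : ℝ}
    (ha : ∀ x, ∑ j, (pd j φ x) ^ 2 = a) (hb : ∀ x, ∑ j, pd j (pd j φ) x = b)
    (j k : Fin m) (x : Fin m → ℝ) : pd k (pd j φ) x = 0 := by
  have hp : ∀ j, ContDiff ℝ 2 (pd j φ) := fun j => contDiff_pd (n := 2) (hφ.of_le (le_of_eq (by norm_num))) j
  have hq : ∀ j k, ContDiff ℝ 1 (pd k (pd j φ)) := fun j k =>
    contDiff_pd (n := 1) (by simpa [one_add_one_eq_two] using hp j) k
  have hpd : ∀ j, Differentiable ℝ (pd j φ) := fun j => (hp j).differentiable (by simp)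
  have hqd : ∀ j k, Differentiable ℝ (pd k (pd j φ)) := fun j k =>
    (hq j k).differentiable (by simp)
  -- first derivative of `a`
  have hA : ∀ k y, ∑ j, pd j φ y * pd k (pd j φ) y = 0 := by
    intro k y
    have h1 : HasDerivAt (fun t => ∑ j, (pd j φ (Function.update y k t)) ^ 2)
        (∑ j, ((2 : ℕ) * (pd j φ y) ^ (2 - 1) * pd k (pd j φ) y)) (y k) := by
      refine HasDerivAt.fun_sum fun j _ => ?_
      have h2 := line_hasDeriv_pd (hpd j y) k
      have h3 := h2.fun_pow 2
      simpa [Function.update_eq_self] using h3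
    have h4 : (fun t => ∑ j, (pd j φ (Function.update y k t)) ^ 2) = fun _ => a := by
      funext t
      exact ha _
    rw [h4] at h1
    have h5 := h1.unique (hasDerivAt_const (y k) a)
    have h6 : ∑ j, ((2 : ℕ) * (pd j φ y) ^ (2 - 1) * pd k (pd j φ) y) =
        2 * ∑ j, pd j φ y * pd k (pd j φ) y := by
      rw [Finset.mul_sum]
      refine Finset.sum_congr rfl fun j _ => ?_
      norm_num
      ring
    rw [h6] at h5
    linarith
  -- second derivative of `a`
  have hB : ∀ k, ∑ j, ((pd k (pd j φ) x) ^ 2 + pd j φ x * pd k (pd k (pd j φ)) x) = 0 := by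
    intro k
    have h1 : HasDerivAt (fun t => ∑ j, pd j φ (Function.update x k t) *
          pd k (pd j φ) (Function.update x k t))
        (∑ j, (pd k (pd j φ) x * pd k (pd j φ) x + pd j φ x * pd k (pd k (pd j φ)) x)) (x k) := by
      refine HasDerivAt.fun_sum fun j _ => ?_
      have h2 := line_hasDeriv_pd (hpd j x) k
      have h3 := line_hasDeriv_pd (hqd j k x) k
      have h4 := h2.fun_mul h3
      simpa [Function.update_eq_self] using h4
    have h4 : (fun t => ∑ j, pd j φ (Function.update x k t) *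
        pd k (pd j φ) (Function.update x k t)) = fun _ => 0 := by
      funext t
      exact hA k _
    rw [h4] at h1
    have h5 := h1.unique (hasDerivAt_const (x k) (0 : ℝ))
    rw [← h5]
    refine Finset.sum_congr rfl fun j _ => ?_
    ring
  -- commuting derivatives
  have hcomm : ∀ j k, pd k (pd k (pd j φ)) = pd j (pd k (pd k φ)) := by
    intro j k
    have h2 : ContDiff ℝ 2 φ := hφ.of_le (by norm_num)
    rw [pd_comm h2 k j]
    have h3 : ContDiff ℝ 2 (pd k φ) := hp k
    rw [pd_comm h3 k j]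
  -- the derivative of `Δφ` vanishes
  have hbzero : ∀ j, ∑ k, pd j (pd k (pd k φ)) x = 0 := by
    intro j
    have h1 : HasDerivAt (fun t => ∑ k, pd k (pd k φ) (Function.update x j t))
        (∑ k, pd j (pd k (pd k φ)) x) (x j) := by
      refine HasDerivAt.fun_sum fun k _ => ?_
      exact line_hasDeriv_pd (hqd k k x) j
    have h2 : (fun t => ∑ k, pd k (pd k φ) (Function.update x j t)) = fun _ => b := by
      funext t
      exact hb _
    rw [h2] at h1
    exact h1.unique (hasDerivAt_const (x j) b)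
  -- summing
  have hsum : ∑ k, ∑ j, (pd k (pd j φ) x) ^ 2 = 0 := by
    have h1 : ∑ k, ∑ j, ((pd k (pd j φ) x) ^ 2 + pd j φ x * pd k (pd k (pd j φ)) x) = 0 :=
      Finset.sum_eq_zero fun k _ => hB k
    simp only [Finset.sum_add_distrib] at h1
    have h2 : ∑ k, ∑ j, pd j φ x * pd k (pd k (pd j φ)) x = 0 := by
      rw [Finset.sum_comm]
      refine Finset.sum_eq_zero fun j _ => ?_
      rw [← Finset.mul_sum]
      have h3 : ∑ k, pd k (pd k (pd j φ)) x = ∑ k, pd j (pd k (pd k φ)) x :=
        Finset.sum_congr rfl fun k _ => by rw [hcomm]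
      rw [h3, hbzero, mul_zero]
    linarith
  have h1 := (Finset.sum_eq_zero_iff_of_nonneg
    (fun k _ => Finset.sum_nonneg fun j _ => sq_nonneg (pd k (pd j φ) x))).1 hsum k
    (Finset.mem_univ k)
  have h2 := (Finset.sum_eq_zero_iff_of_nonneg
    (fun j _ => sq_nonneg (pd k (pd j φ) x))).1 h1 j (Finset.mem_univ j)
  exact pow_eq_zero_iff (two_ne_zero) |>.1 h2

/-- A `C³` function with `|∇φ|²` and `Δφ` constant is affine. -/
theorem affine_of_const {φ : (Fin m → ℝ) → ℝ} (hφ : ContDiff ℝ 3 φ) {a b : ℝ}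
    (ha : ∀ x, ∑ j, (pd j φ x) ^ 2 = a) (hb : ∀ x, ∑ j, pd j (pd j φ) x = b) :
    ∃ (β : Fin m → ℝ) (c : ℝ), ∀ x, φ x = ∑ j, β j * x j + c := by
  have hp : ∀ j, ContDiff ℝ 2 (pd j φ) := fun j => contDiff_pd (n := 2) (hφ.of_le (le_of_eq (by norm_num))) j
  have hpd : ∀ j, Differentiable ℝ (pd j φ) := fun j => (hp j).differentiable (by simp)
  have hconst : ∀ j x y, pd j φ x = pd j φ y := fun j =>
    const_of_pd_zero (hpd j) (fun k z => bochner hφ ha hb j k z)
  set β : Fin m → ℝ := fun j => pd j φ 0 with hβ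
  have hd : Differentiable ℝ φ := hφ.differentiable (by simp)
  set ψ : (Fin m → ℝ) → ℝ := fun x => φ x - ∑ j, β j * x j with hψ
  have hlin : Differentiable ℝ (fun x : Fin m → ℝ => ∑ j, β j * x j) := by
    refine Differentiable.fun_sum fun j _ => ?_
    exact (differentiable_apply j).const_mul _
  have hψd : Differentiable ℝ ψ := hd.fun_sub hlin
  have hzero : ∀ k x, pd k ψ x = 0 := by
    intro k x
    have h1 := line_hasDeriv_pd (hd x) k
    have h2 : HasDerivAt (fun t => ∑ j, β j * Function.update x k t j) (β k) (x k) := by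
      have h3 : ∀ j, HasDerivAt (fun t => β j * Function.update x k t j)
          (β j * (Pi.single k (1 : ℝ) : Fin m → ℝ) j) (x k) := fun j =>
        ((hasDerivAt_pi.1 (hasDerivAt_update x k (x k))) j).const_mul (β j)
      have h4 := HasDerivAt.fun_sum (u := Finset.univ) fun j _ => h3 j
      simpa [Pi.single_apply] using h4
    have h5 := h1.fun_sub h2
    have h6 : pd k φ x - β k = 0 := by
      rw [hβ]
      simp only
      rw [hconst k x 0]
      ring
    rw [h6] at h5
    exact h5.deriv
  have hc := const_of_pd_zero hψd hzero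
  refine ⟨β, ψ 0, fun x => ?_⟩
  have := hc x 0
  simp only [hψ] at this ⊢
  linarith

end Vale.Agent.Lib.P134
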