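import Vale.Agent.Lib.P134.Calc

/-!
# P134: solutions of Allen-Cahn whose level sets are vertical translates of one graph
-/

open Set Filter Topology

namespace Vale.Agent.Lib.P134

variable {m : ℕ}

/-- The Laplacian in coordinates: `Δu = ∑ᵢ ∂ᵢ∂ᵢ u`. -/
noncomputable def laplacian {n : ℕ} (u : (Fin n → ℝ) → ℝ) (x : Fin n → ℝ) : ℝ :=
  ∑ i, pd i (pd i u) x

/-- The function `u(x', xₙ) = F(xₙ - φ(x'))` on `ℝ^(m+1)`: its level sets are the vertical
translates of the graph of `φ`. -/
noncomputable def translateGraph (F : ℝ → ℝ) (φ : (Fin m → ℝ) → ℝ) (x : Fin (m + 1) → ℝ) : ℝ :=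
  F (x (Fin.last m) - φ (Fin.init x))

/-- The one-dimensional lemma: a bounded function with `F' > 0` cannot satisfy `F'' A = F' B` unless
`A = B = 0`. -/
theorem no_ratio {F : ℝ → ℝ} (hF : ContDiff ℝ 2 F) (hpos : ∀ s, 0 < deriv F s)
    (hb : ∀ s, |F s| ≤ 1) {A B : ℝ}
    (h : ∀ s, deriv (deriv F) s * A = deriv F s * B) : A = 0 ∧ B = 0 := by
  have hF1 : ContDiff ℝ 1 (deriv F) := by
    have h2 : ContDiff ℝ (1 + 1) F := by
      rw [one_add_one_eq_two]
      exact hF
    exact ((contDiff_succ_iff_deriv (n := 1)).1 h2).2.2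
  have hd : Differentiable ℝ F := hF.differentiable (by simp)
  have hd1 : Differentiable ℝ (deriv F) := hF1.differentiable (by simp)
  by_cases hA : A = 0
  · refine ⟨hA, ?_⟩
    have := h 0
    rw [hA, mul_zero] at this
    exact (mul_eq_zero.1 this.symm).resolve_left (hpos 0).ne'
  exfalso
  set κ := B / A with hκ
  have hκ' : ∀ s, deriv (deriv F) s = κ * deriv F s := by
    intro s
    rw [hκ]
    field_simp
    linarith [h s]
  set C := deriv F 0 with hC
  have hC0 : 0 < C := hpos 0
  have hG : ∀ s, HasDerivAt (fun r => deriv F r * Real.exp (-κ * r)) 0 s := by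
    intro s
    have h1 : HasDerivAt (fun r : ℝ => Real.exp (-κ * r)) (Real.exp (-κ * s) * (-κ * 1)) s :=
      (((hasDerivAt_id' s).const_mul (-κ)).exp)
    have h2 := (hd1 s).hasDerivAt.fun_mul h1
    refine h2.congr_deriv ?_
    rw [hκ' s]
    ring
  have hexp : ∀ s, deriv F s = C * Real.exp (κ * s) := by
    intro s
    have h1 := is_const_of_deriv_eq_zero (f := fun r => deriv F r * Real.exp (-κ * r))
      (fun r => (hG r).differentiableAt) (fun r => (hG r).deriv) s 0
    simp only [mul_zero, Real.exp_zero, mul_one] at h1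
    rw [← hC] at h1
    rw [← h1, mul_assoc, ← Real.exp_add]
    have : -κ * s + κ * s = 0 := by ring
    rw [this, Real.exp_zero, mul_one]
  rcases le_or_gt 0 κ with hκ0 | hκ0
  · -- go right
    have hbound := Convex.mul_sub_le_image_sub_of_le_deriv (D := Ici 0) (convex_Ici 0)
      (f := F) hd.continuous.continuousOn hd.differentiableOn (C := C) ?_
    · have hs : (0 : ℝ) ≤ 3 / C := by positivity
      have h1 := hbound 0 (mem_Ici.2 le_rfl) (3 / C) (mem_Ici.2 hs) hs
      have e : C * (3 / C - 0) = 3 := by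
        rw [sub_zero]
        field_simp
      rw [e] at h1
      have h2 := abs_le.1 (hb (3 / C))
      have h3 := abs_le.1 (hb 0)
      linarith [h2.2, h3.1]
    · intro s hs
      rw [interior_Ici, mem_Ioi] at hs
      rw [hexp s]
      have : 1 ≤ Real.exp (κ * s) := Real.one_le_exp (by positivity)
      nlinarith
  · -- go left
    have hbound := Convex.mul_sub_le_image_sub_of_le_deriv (D := Iic 0) (convex_Iic 0)
      (f := F) hd.continuous.continuousOn hd.differentiableOn (C := C) ?_
    · have hs : -(3 / C) ≤ (0 : ℝ) := by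
        have : (0 : ℝ) ≤ 3 / C := by positivity
        linarith
      have h1 := hbound (-(3 / C)) (mem_Iic.2 hs) 0 (mem_Iic.2 le_rfl) hs
      have e : C * (0 - -(3 / C)) = 3 := by field_simp; ring
      rw [e] at h1
      have h2 := abs_le.1 (hb (-(3 / C)))
      have h3 := abs_le.1 (hb 0)
      linarith [h2.1, h3.2]
    · intro s hs
      rw [interior_Iic, mem_Iio] at hs
      rw [hexp s]
      have : 1 ≤ Real.exp (κ * s) := Real.one_le_exp (by nlinarith)
      nlinarith

section Derivs

variable {F : ℝ → ℝ} {φ : (Fin m → ℝ) → ℝ}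

theorem init_update_castSucc' (x : Fin (m + 1) → ℝ) (j : Fin m) (τ : ℝ) :
    Fin.init (Function.update x j.castSucc τ) = Function.update (Fin.init x) j τ := by
  funext k
  simp only [Fin.init]
  by_cases hk : k = j
  · subst hk
    simp
  · rw [Function.update_of_ne hk, Function.update_of_ne
      (fun h => hk (Fin.castSucc_injective _ h))]
    rfl

theorem init_update_last' (x : Fin (m + 1) → ℝ) (τ : ℝ) :
    Fin.init (Function.update x (Fin.last m) τ) = Fin.init x := by
  funext k
  simp only [Fin.init]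
  rw [Function.update_of_ne]
  exact (Fin.castSucc_lt_last k).ne

theorem pd_castSucc (hF : Differentiable ℝ F) (hφ : Differentiable ℝ φ) (j : Fin m)
    (y : Fin (m + 1) → ℝ) :
    pd j.castSucc (translateGraph F φ) y =
      deriv F (y (Fin.last m) - φ (Fin.init y)) * (- pd j φ (Fin.init y)) := by
  unfold pd
  have hfun : (fun τ => translateGraph F φ (Function.update y j.castSucc τ)) =
      fun τ => F (y (Fin.last m) - φ (Function.update (Fin.init y) j τ)) := by
    funext τ
    unfold translateGraph
    rw [init_update_castSucc', Function.update_of_ne (Fin.castSucc_lt_last j).ne']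
  rw [hfun]
  have h1 := line_hasDeriv_pd (hφ (Fin.init y)) j
  have h2 := h1.const_sub (y (Fin.last m))
  have h3 : HasDerivAt F (deriv F (y (Fin.last m) - φ (Fin.init y)))
      (y (Fin.last m) - φ (Function.update (Fin.init y) j (Fin.init y j))) := by
    rw [Function.update_eq_self]
    exact (hF _).hasDerivAt
  have h4 := h3.comp (Fin.init y j) h2
  have h5 := h4.deriv
  exact h5

theorem pd_last (y : Fin (m + 1) → ℝ) :
    pd (Fin.last m) (translateGraph F φ) y = deriv F (y (Fin.last m) - φ (Fin.init y)) := by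
  unfold pd
  have hfun : (fun τ => translateGraph F φ (Function.update y (Fin.last m) τ)) =
      fun τ => F (τ - φ (Fin.init y)) := by
    funext τ
    unfold translateGraph
    rw [init_update_last', Function.update_self]
  rw [hfun]
  exact deriv_comp_sub_const (f := F) (a := φ (Fin.init y)) (x := y (Fin.last m)) |>.trans rfl

theorem pd_pd_castSucc (hF1 : Differentiable ℝ (deriv F)) (hF : Differentiable ℝ F)
    (hφ : Differentiable ℝ φ) (j : Fin m) (hp : Differentiable ℝ (pd j φ))
    (x : Fin (m + 1) → ℝ) :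
    pd j.castSucc (pd j.castSucc (translateGraph F φ)) x =
      deriv (deriv F) (x (Fin.last m) - φ (Fin.init x)) * (pd j φ (Fin.init x)) ^ 2 -
        deriv F (x (Fin.last m) - φ (Fin.init x)) * pd j (pd j φ) (Fin.init x) := by
  conv_lhs => unfold pd
  have hfun : (fun τ => deriv (fun σ => translateGraph F φ (Function.update
        (Function.update x j.castSucc τ) j.castSucc σ)) (Function.update x j.castSucc τ j.castSucc)) =
      fun τ => deriv F (x (Fin.last m) - φ (Function.update (Fin.init x) j τ)) *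
        (- pd j φ (Function.update (Fin.init x) j τ)) := by
    funext τ
    have h0 := pd_castSucc hF hφ j (Function.update x j.castSucc τ)
    unfold pd at h0
    rw [h0, init_update_castSucc', Function.update_of_ne (Fin.castSucc_lt_last j).ne']
    rfl
  rw [hfun]
  have h1 := line_hasDeriv_pd (hφ (Fin.init x)) j
  have h2 := h1.const_sub (x (Fin.last m))
  have h3 : HasDerivAt (deriv F) (deriv (deriv F) (x (Fin.last m) - φ (Fin.init x)))
      (x (Fin.last m) - φ (Function.update (Fin.init x) j (Fin.init x j))) := by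
    rw [Function.update_eq_self]
    exact (hF1 _).hasDerivAt
  have h4 := h3.comp (Fin.init x j) h2
  have h5 := (line_hasDeriv_pd (hp (Fin.init x)) j).fun_neg
  have h6 := h4.fun_mul h5
  have h7 := h6.deriv
  simp only [Function.comp_def, Function.update_eq_self] at h7
  change deriv (fun τ => deriv F (x (Fin.last m) - φ (Function.update (Fin.init x) j τ)) *
    (- pd j φ (Function.update (Fin.init x) j τ))) (Fin.init x j) = _
  rw [h7]
  ring

theorem pd_pd_last (x : Fin (m + 1) → ℝ) :
    pd (Fin.last m) (pd (Fin.last m) (translateGraph (φ := φ) F)) x =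
      deriv (deriv F) (x (Fin.last m) - φ (Fin.init x)) := by
  conv_lhs => unfold pd
  have hfun : (fun τ => deriv (fun σ => translateGraph F φ (Function.update
        (Function.update x (Fin.last m) τ) (Fin.last m) σ))
        (Function.update x (Fin.last m) τ (Fin.last m))) =
      fun τ => deriv F (τ - φ (Fin.init x)) := by
    funext τ
    have h0 := pd_last (F := F) (φ := φ) (Function.update x (Fin.last m) τ)
    unfold pd at h0
    rw [h0, init_update_last', Function.update_self]
  rw [hfun]
  exact deriv_comp_sub_const (f := deriv F) (a := φ (Fin.init x)) (x := x (Fin.last m))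

end Derivs

/-- **Main theorem.** If `u(x', xₙ) = F(xₙ - φ(x'))` solves the Allen-Cahn equation on `ℝ^(m+1)`
with `|u| ≤ 1` and `∂ₙu > 0`, then `φ` is affine and `u` is one-dimensional. -/
theorem translates_rigidity {F : ℝ → ℝ} {φ : (Fin m → ℝ) → ℝ} (hF : ContDiff ℝ 2 F)
    (hφ : ContDiff ℝ 3 φ) (hpos : ∀ s, 0 < deriv F s) (hb : ∀ s, |F s| ≤ 1)
    (hu : ∀ x, laplacian (translateGraph F φ) x = (translateGraph F φ x) ^ 3 - translateGraph F φ x) :
    (∃ (β : Fin m → ℝ) (c : ℝ), ∀ x', φ x' = ∑ j, β j * x' j + c) ∧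
      ∃ (e : Fin (m + 1) → ℝ) (h : ℝ → ℝ), ∑ i, (e i) ^ 2 = 1 ∧
        ∀ x, translateGraph F φ x = h (∑ i, e i * x i) := by
  have hF1 : ContDiff ℝ 1 (deriv F) := by
    have h2 : ContDiff ℝ (1 + 1) F := by
      rw [one_add_one_eq_two]
      exact hF
    exact ((contDiff_succ_iff_deriv (n := 1)).1 h2).2.2
  have hFd : Differentiable ℝ F := hF.differentiable (by simp)
  have hF1d : Differentiable ℝ (deriv F) := hF1.differentiable (by simp)
  have hφd : Differentiable ℝ φ := hφ.differentiable (by simp)
  have hp : ∀ j, ContDiff ℝ 2 (pd j φ) := fun j =>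
    contDiff_pd (n := 2) (hφ.of_le (le_of_eq (by norm_num))) j
  have hpd : ∀ j, Differentiable ℝ (pd j φ) := fun j => (hp j).differentiable (by simp)
  -- the equation in the variables `(x', s)`
  have heq : ∀ (x' : Fin m → ℝ) (s : ℝ), deriv (deriv F) s * (∑ j, (pd j φ x') ^ 2 + 1) -
      deriv F s * ∑ j, pd j (pd j φ) x' = F s ^ 3 - F s := by
    intro x' s
    set x : Fin (m + 1) → ℝ := Fin.snoc x' (s + φ x') with hx
    have hlast : x (Fin.last m) = s + φ x' := by simp [hx]
    have hinit : Fin.init x = x' := by simp [hx]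
    have hs : x (Fin.last m) - φ (Fin.init x) = s := by
      rw [hlast, hinit]
      ring
    have h1 := hu x
    unfold laplacian translateGraph at h1
    rw [Fin.sum_univ_castSucc, hs] at h1
    have h2 : ∀ j : Fin m, pd j.castSucc (pd j.castSucc (translateGraph F φ)) x =
        deriv (deriv F) s * (pd j φ x') ^ 2 - deriv F s * pd j (pd j φ) x' := by
      intro j
      rw [pd_pd_castSucc hF1d hFd hφd j (hpd j) x, hs, hinit]
    have h3 : pd (Fin.last m) (pd (Fin.last m) (translateGraph F φ)) x = deriv (deriv F) s := by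
      rw [pd_pd_last x, hs]
    change ∑ j : Fin m, pd j.castSucc (pd j.castSucc (translateGraph F φ)) x +
      pd (Fin.last m) (pd (Fin.last m) (translateGraph F φ)) x = _ at h1
    rw [h3] at h1
    simp only [h2] at h1
    rw [Finset.sum_sub_distrib, ← Finset.mul_sum, ← Finset.mul_sum] at h1
    linarith
  -- constancy of `a` and `b`
  have hconst : ∀ x' y' : Fin m → ℝ, ∑ j, (pd j φ x') ^ 2 = ∑ j, (pd j φ y') ^ 2 ∧
      ∑ j, pd j (pd j φ) x' = ∑ j, pd j (pd j φ) y' := by
    intro x' y'
    have h1 := no_ratio hF hpos hb (A := ∑ j, (pd j φ x') ^ 2 - ∑ j, (pd j φ y') ^ 2)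
      (B := ∑ j, pd j (pd j φ) x' - ∑ j, pd j (pd j φ) y') (fun s => by
        have h2 := heq x' s
        have h3 := heq y' s
        linarith)
    exact ⟨sub_eq_zero.1 h1.1, sub_eq_zero.1 h1.2⟩
  obtain ⟨β, c, hβ⟩ := affine_of_const hφ (a := ∑ j, (pd j φ 0) ^ 2)
    (b := ∑ j, pd j (pd j φ) 0) (fun x => (hconst x 0).1) (fun x => (hconst x 0).2)
  refine ⟨⟨β, c, hβ⟩, ?_⟩
  -- one-dimensionality
  set N := Real.sqrt (1 + ∑ j, (β j) ^ 2) with hN
  have hinner : 0 < 1 + ∑ j, (β j) ^ 2 := by
    have : 0 ≤ ∑ j, (β j) ^ 2 := Finset.sum_nonneg fun j _ => sq_nonneg _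
    linarith
  have hN0 : 0 < N := Real.sqrt_pos.2 hinner
  have hN2 : N ^ 2 = 1 + ∑ j, (β j) ^ 2 := Real.sq_sqrt hinner.le
  refine ⟨Fin.snoc (fun j => - β j / N) (1 / N), fun r => F (N * r - c), ?_, ?_⟩
  · rw [Fin.sum_univ_castSucc]
    simp only [Fin.snoc_castSucc, Fin.snoc_last]
    have h1 : ∀ j, (- β j / N) ^ 2 = (β j) ^ 2 / N ^ 2 := fun j => by
      rw [div_pow, neg_sq]
    simp only [h1]
    rw [← Finset.sum_div, div_pow, one_pow, ← add_div, add_comm, ← hN2]
    exact div_self (by positivity)
  · intro x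
    unfold translateGraph
    simp only
    congr 1
    rw [hβ, Fin.sum_univ_castSucc]
    simp only [Fin.snoc_castSucc, Fin.snoc_last]
    rw [mul_add, Finset.mul_sum]
    have h1 : ∀ j : Fin m, N * (- β j / N * x j.castSucc) = - (β j * x j.castSucc) := fun j => by
      field_simp
    simp only [h1]
    rw [Finset.sum_neg_distrib]
    have h2 : N * (1 / N * x (Fin.last m)) = x (Fin.last m) := by
      field_simp
    rw [h2]
    have h3 : ∑ j, β j * Fin.init x j = ∑ j : Fin m, β j * x j.castSucc := rfl
    rw [h3]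
    ring

end Vale.Agent.Lib.P134
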